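import Vale.Agent.Lib.P328.CapS.Zero
import Vale.Agent.Lib.P328.PBinf.Final
import Vale.Agent.Lib.P328.Lower.Main

/-!
# A polynomial factor estimate of the number of contingency tables, for all margins

For all margins `r`, `c`, with no condition at all, the number of tables is at most
`10 ^ 18 * (m + 1) ^ 16 * (n + 1) ^ 36 * betaC c * Ihat r c`, with no dependence on the size of the
margins, and at least `betaC c * Ihat r c`. Here `Ihat r c` is the expectation over an exponential
random matrix `t` of the capacity of `∏ i, (∑ j, t j i * b j) ^ r i` at `b ^ c`, divided by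
`∏ i, r i !`, and the capacity is log-concave in `t`. The number of tables is the same expression
with the coefficient of `b ^ c` in place of the capacity.

The proof goes column by column. The input is a sharp one column inequality for a product of
binomial laws conditioned on its mean, `∑ x, Y x * P x ≤ c * exp (-c) * c ^ c / c !` at level `c`
(`PBL_all`), with the credit `Y x = ∑ i, x i * (R i - x i) / (R i - 1)`; on the side of the tables,
`Y` is at least a fixed fraction of `c` on average over uniform tables. Rows of sum one are merged
with their entries of `t` frozen, and a unit row lemma removes the mask with a polynomial potential.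
-/

open Finset MeasureTheory Vale.Agent.Lib.P328.Cap
open scoped ENNReal

/-- **Polynomial factor estimate for contingency tables with arbitrary margins.** For all margins
with the same total: `Ihat` is finite; the number of tables is at most
`10 ^ 18 * (m + 1) ^ 16 * (n + 1) ^ 36 * betaC c * Ihat r c`; if all columns are positive it is at
least `betaC c * Ihat r c`; the capacity is log-concave in the positive coefficient matrix. -/
theorem Vale.Agent.Results.P328.A_all_poly.result {m n : ℕ} (hn : 0 < n) (r : Fin m → ℕ)
    (c : Fin n → ℕ) (hsum : ∑ i, r i = ∑ j, c j) :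
    Ihat r c < ⊤ ∧
    ((tabs r c).card : ℝ≥0∞)
      ≤ ENNReal.ofReal (10 ^ 18 * ((m : ℝ) + 1) ^ 16 * ((n : ℝ) + 1) ^ 36 * betaC c) * Ihat r c ∧
    ((∀ j, 0 < c j) → ENNReal.ofReal (betaC c) * Ihat r c ≤ ((tabs r c).card : ℝ≥0∞)) ∧
    ∀ t t' : Fin n → Fin m → ℝ, (∀ j i, 0 < t j i) → (∀ j i, 0 < t' j i) →
      ∀ a : ℝ, 0 ≤ a → a ≤ 1 →
        capa r c t ^ a * capa r c t' ^ (1 - a) ≤ capa r c fun j i => a * t j i + (1 - a) * t' j i := by
  refine ⟨Ihat_lt_top r c, ?_, ?_, fun t t' ht ht' a ha ha1 => capa_logconc r c t t' ht ht' a ha ha1⟩
  · refine Vale.Agent.Lib.P328.CapS.card_tabs_poly_all hn r c hsum fun j => ?_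
    rcases Nat.lt_or_ge (c j) 2 with h | h
    · have : c j = 0 ∨ c j = 1 := by omega
      rcases this with h0 | h0
      · exact Or.inl h0
      · exact Or.inr (Or.inl h0)
    · exact Or.inr (Or.inr (Vale.Agent.Lib.P328.PBinf.LevelOK_all h))
  · intro hc
    obtain ⟨k, rfl⟩ : ∃ k, n = k + 1 := ⟨n - 1, by omega⟩
    exact Vale.Agent.Lib.P328.Lower.betaC_Ihat_le r c hc hsum
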