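import Vale.Agent.Lib.P328.Mix
import Vale.Agent.Lib.P328.C3All

/-!
# Rapid mixing of the row-pair heat bath chain on contingency tables with row sums at most three

Column sums are arbitrary, and the numbers of rows and columns are arbitrary.
The proof: a Knabe type local-to-global argument reduces the spectral gap to an inequality on
blocks of three rows; since the row sums are at most three, a block has at most nine units, and
after dropping empty columns and sorting there are 126 cases, each checked by the kernel from a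
certificate of nonnegativity of an integer quadratic form.
-/

namespace Vale.Agent.Results.P328.A_rowsums3

open Finset Vale.Agent.Lib.P328

variable {m n : ℕ}

theorem hstar3 (r : Fin m → ℕ) (c : Fin n → ℕ) (hr : ∀ i, r i ≤ 3) (t : Finset (Fin m))
    (ht : t.card = 3) (x₀ : Fin m → Fin n → ℕ) (_ : x₀ ∈ tables r c) :
    Star (rT t r) (cT t x₀) :=
  star_of_localOK C3.localOK (by rw [Fintype.card_coe, ht]) (rT t r) (fun i => hr i.1) (cT t x₀)

theorem card_om_le (r : Fin m → ℕ) (c : Fin n → ℕ) (hr : ∀ i, r i ≤ 3) :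
    Fintype.card (Om r c) ≤ 4 ^ (m * n) := by
  rw [Fintype.card_coe]
  refine (Finset.card_le_card (tables_subset r c)).trans ?_
  rw [Fintype.card_piFinset]
  simp only [Fintype.card_piFinset, Finset.card_range]
  calc ∏ i : Fin m, ∏ _z : Fin n, (r i + 1) ≤ ∏ _i : Fin m, ∏ _z : Fin n, 4 := by
        apply Finset.prod_le_prod' 
        intro i _
        apply Finset.prod_le_prod'
        intro _ _
        have := hr i
        omega
    _ = 4 ^ (m * n) := by
        simp [Finset.prod_const, ← pow_mul, mul_comm]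

end Vale.Agent.Results.P328.A_rowsums3

open Finset Vale.Agent.Lib.P328 Vale.Agent.Results.P328.A_rowsums3 in
/-- **Rapid mixing for contingency tables with row sums at most three.** For all `m ≥ 2`, `n`, all
row sums `r i ≤ 3` and all column sums `c`: the sum over pairs of rows of the defects of the heat
bath steps has spectral gap at least one, and the lazy row-pair heat bath chain is within total
variation `ε` of uniform, from every start, after `m ^ 2 * (2 * m * n + 2 * log (1 / ε))` steps. -/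
theorem Vale.Agent.Results.P328.A_rowsums3.result {m n : ℕ} (hm : 2 ≤ m) (r : Fin m → ℕ)
    (c : Fin n → ℕ) (hr : ∀ i, r i ≤ 3) :
    (∀ f : Om r c → ℝ, ∑ X, f X = 0 →
      ∑ X, f X ^ 2
        ≤ ∑ e ∈ powersetCard 2 (univ : Finset (Fin m)), ∑ X, (f X - (heatBath e).mulVec f X) ^ 2) ∧
    (∀ (X : Om r c) (ε : ℝ) (t : ℕ), 0 < ε →
      (m : ℝ) ^ 2 * (2 * (m : ℝ) * (n : ℝ) + 2 * Real.log (1 / ε)) ≤ (t : ℝ) →
      (1 / 2 : ℝ) * ∑ Y, |(rowPairChain r c ^ t) X Y - 1 / (Fintype.card (Om r c) : ℝ)| ≤ ε) := by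
  refine ⟨gap_om (hstar3 r c hr), ?_⟩
  intro X ε t hε ht
  have hR : 2 ≤ Fintype.card (Fin m) := by simpa using hm
  have htv := chain_tv hR (hstar3 r c hr) X t
  set TV := (1 / 2 : ℝ) * ∑ Y, |(rowPairChain r c ^ t) X Y - 1 / (Fintype.card (Om r c) : ℝ)| with hTV
  have hTV0 : 0 ≤ TV := by
    rw [hTV]
    have : 0 ≤ ∑ Y, |(rowPairChain r c ^ t) X Y - 1 / (Fintype.card (Om r c) : ℝ)| :=
      Finset.sum_nonneg fun _ _ => abs_nonneg _
    positivity
  have hmR : (2 : ℝ) ≤ m := by exact_mod_cast hm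
  have hm2 : (0 : ℝ) < (m : ℝ) ^ 2 := by positivity
  -- the contraction factor
  set ρ : ℝ := 1 - 1 / (2 * ((Fintype.card (Fin m)).choose 2 : ℝ)) with hρ
  have hchoose : 2 * ((Fintype.card (Fin m)).choose 2 : ℝ) = (m : ℝ) * ((m : ℝ) - 1) := by
    rw [Fintype.card_fin, Nat.cast_choose_two]
    ring
  have hρ1 : ρ ≤ 1 - 1 / (m : ℝ) ^ 2 := by
    rw [hρ, hchoose]
    have h1 : 1 / (m : ℝ) ^ 2 ≤ 1 / ((m : ℝ) * ((m : ℝ) - 1)) := by
      apply one_div_le_one_div_of_le
      · have : (0 : ℝ) < (m : ℝ) - 1 := by linarith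
        positivity
      · nlinarith
    linarith
  have hρ0 : 0 ≤ ρ := by
    rw [hρ, hchoose]
    have h1 : 1 / ((m : ℝ) * ((m : ℝ) - 1)) ≤ 1 := by
      rw [div_le_one (by nlinarith)]
      nlinarith
    linarith
  have hρexp : ρ ^ t ≤ Real.exp (-((t : ℝ) / (m : ℝ) ^ 2)) := by
    have h1 : ρ ≤ Real.exp (-(1 / (m : ℝ) ^ 2)) :=
      hρ1.trans (Real.one_sub_le_exp_neg _)
    calc ρ ^ t ≤ (Real.exp (-(1 / (m : ℝ) ^ 2))) ^ t := pow_le_pow_left₀ hρ0 h1 t
      _ = Real.exp (-((t : ℝ) / (m : ℝ) ^ 2)) := by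
        rw [← Real.exp_nat_mul]
        congr 1
        ring
  have ht2 : 2 * (m : ℝ) * (n : ℝ) + 2 * Real.log (1 / ε) ≤ (t : ℝ) / (m : ℝ) ^ 2 := by
    rw [le_div_iff₀ hm2]
    linarith
  have hρexp2 : ρ ^ t ≤ Real.exp (-(2 * (m : ℝ) * (n : ℝ))) * ε ^ 2 := by
    refine hρexp.trans ?_
    have e1 : Real.exp (-(2 * (m : ℝ) * (n : ℝ))) * ε ^ 2
        = Real.exp (-(2 * (m : ℝ) * (n : ℝ) + 2 * Real.log (1 / ε))) := by
      rw [neg_add, Real.exp_add]
      congr 1
      have : Real.log (1 / ε) = - Real.log ε := by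
        rw [one_div, Real.log_inv]
      rw [this]
      have e2 : -(2 * -Real.log ε) = Real.log ε + Real.log ε := by ring
      rw [e2, Real.exp_add, Real.exp_log hε]
      ring
    rw [e1]
    exact Real.exp_le_exp.2 (neg_le_neg ht2)
  -- the size of the state space
  have hcard : (Fintype.card (Om r c) : ℝ) ≤ Real.exp (2 * (m : ℝ) * (n : ℝ)) := by
    have h1 : (Fintype.card (Om r c) : ℝ) ≤ (4 : ℝ) ^ (m * n) := by
      exact_mod_cast card_om_le r c hr
    have h2 : (4 : ℝ) ≤ Real.exp 2 := by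
      have h3 : (2 : ℝ) ≤ Real.exp 1 := by
        have := Real.add_one_le_exp (1 : ℝ)
        linarith
      have h4 : Real.exp 2 = Real.exp 1 * Real.exp 1 := by
        rw [← Real.exp_add]
        norm_num
      rw [h4]
      nlinarith
    calc (Fintype.card (Om r c) : ℝ) ≤ (4 : ℝ) ^ (m * n) := h1
      _ ≤ (Real.exp 2) ^ (m * n) := pow_le_pow_left₀ (by norm_num) h2 _
      _ = Real.exp (2 * (m : ℝ) * (n : ℝ)) := by
        rw [← Real.exp_nat_mul]
        congr 1
        push_cast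
        ring
  have hfinal : TV ^ 2 ≤ ε ^ 2 := by
    refine htv.trans ?_
    have hN0 : (0 : ℝ) ≤ (Fintype.card (Om r c) : ℝ) := by positivity
    have hE : Real.exp (2 * (m : ℝ) * (n : ℝ)) * Real.exp (-(2 * (m : ℝ) * (n : ℝ))) = 1 := by
      rw [← Real.exp_add]
      simp
    have h5 : (Fintype.card (Om r c) : ℝ) * ρ ^ t
        ≤ Real.exp (2 * (m : ℝ) * (n : ℝ)) * (Real.exp (-(2 * (m : ℝ) * (n : ℝ))) * ε ^ 2) :=
      mul_le_mul hcard hρexp2 (pow_nonneg hρ0 t) (Real.exp_pos _).le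
    rw [← mul_assoc, hE, one_mul] at h5
    have h6 : 0 ≤ ε ^ 2 := sq_nonneg ε
    calc (1 / 4 : ℝ) * (Fintype.card (Om r c) : ℝ) * ρ ^ t
        = (1 / 4 : ℝ) * ((Fintype.card (Om r c) : ℝ) * ρ ^ t) := by ring
      _ ≤ (1 / 4 : ℝ) * ε ^ 2 := mul_le_mul_of_nonneg_left h5 (by norm_num)
      _ ≤ ε ^ 2 := by linarith
  exact (sq_le_sq₀ hTV0 hε.le).1 hfinal
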