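import Mathlib
import Vale.Agent.Lib.P328.Blsy.Main
import Vale.Agent.Lib.P328.BlsyS.Main
import Vale.Agent.Lib.P328.BlsyS.Density

namespace Vale.Agent.Results.P328.C_blsy

open MeasureTheory Vale.Agent.Lib.P328 Vale.Agent.Lib.P328.Blsy Vale.Agent.Lib.P328.BlsyS
open scoped ENNReal

/-- The density `K = F/(Rlow cap)` of the Barvinok-Luria-Samorodnitsky-Yong estimator is at most
`N^K₀` outside an event of probability at most `N^(-A)`, and the number of tables is within the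
factor `1 - N^(-A)` of the truncated integral `∫ exp (-∑ s) min (F, N^K₀ Rlow cap)`.
First clauses: for all margins `nu` has density `exp (-∑ s) F / |Ω|` and the capacity is
log-concave. Third clause: all sparse margins (`768 r_i c_j ≤ N`, no margin above `N/(K₀ ln N)`),
without any smoothness or equality of margins. Fourth clause: equal row sums with column sums at
most `z0 m`, `m ≥ K₀ ln N`, no column above `N/(K₀ ln N)`. -/
theorem result (A : ℝ) (hA : 1 ≤ A) :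
    (∀ (m n : ℕ) (r : Fin m → ℕ) (c : Fin n → ℕ), nu r c = (((tables r c).card : ℝ≥0∞)⁻¹) •
      (volume : Measure (Fin m → Fin n → ℝ)).withDensity (densF r c)) ∧
    (∀ (m n : ℕ) (r : Fin m → ℕ) (c : Fin n → ℕ) (s s' : Fin m → Fin n → ℝ) (a : ℝ),
      0 ≤ a → a ≤ 1 → cap r c s ^ a * cap r c s' ^ (1 - a) ≤
        cap r c (fun i j => a * s i j + (1 - a) * s' i j)) ∧
    (∃ K₀ : ℝ, 0 < K₀ ∧ ∀ (m n : ℕ) (r : Fin m → ℕ) (c : Fin n → ℕ),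
      (∀ i, 1 ≤ r i) → (∀ j, 1 ≤ c j) → ∑ i, r i = ∑ j, c j → 2 ≤ ∑ i, r i →
      (∀ i j, 768 * ((r i : ℝ) * c j) ≤ ((∑ i, r i : ℕ) : ℝ)) →
      (∀ i, K₀ * Real.log ((∑ i, r i : ℕ) : ℝ) * r i ≤ ((∑ i, r i : ℕ) : ℝ)) →
      (∀ j, K₀ * Real.log ((∑ i, r i : ℕ) : ℝ) * c j ≤ ((∑ i, r i : ℕ) : ℝ)) →
      nu r c {s | ((∑ i, r i : ℕ) : ℝ) ^ K₀ * Rlow r c * cap r c s < FF r c s} ≤
        ENNReal.ofReal (((∑ i, r i : ℕ) : ℝ) ^ (-A)) ∧
      (1 - ENNReal.ofReal (((∑ i, r i : ℕ) : ℝ) ^ (-A))) * ((tables r c).card : ℝ≥0∞) ≤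
        truncInt r c (((∑ i, r i : ℕ) : ℝ) ^ K₀) ∧
      truncInt r c (((∑ i, r i : ℕ) : ℝ) ^ K₀) ≤ ((tables r c).card : ℝ≥0∞)) ∧
    (∀ z0 : ℝ, 1 ≤ z0 → ∃ K₀ : ℝ, 0 < K₀ ∧ ∀ (m n r : ℕ) (c : Fin n → ℕ), (∀ j, 1 ≤ c j) →
      (∀ j, (c j : ℝ) ≤ z0 * m) → ∑ j, c j = m * r → 2 ≤ m * r →
      K₀ * Real.log ((m : ℝ) * r) ≤ m →
      (∀ j, K₀ * Real.log ((m : ℝ) * r) * c j ≤ (m : ℝ) * r) →
      nu (fun _ : Fin m => r) c
        {s | ((m : ℝ) * r) ^ K₀ * Rlow (fun _ : Fin m => r) c * cap (fun _ : Fin m => r) c s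
            < FF (fun _ : Fin m => r) c s} ≤ ENNReal.ofReal (((m : ℝ) * r) ^ (-A)) ∧
      (1 - ENNReal.ofReal (((m : ℝ) * r) ^ (-A))) *
          ((tables (fun _ : Fin m => r) c).card : ℝ≥0∞) ≤
        truncInt (fun _ : Fin m => r) c (((m : ℝ) * r) ^ K₀) ∧
      truncInt (fun _ : Fin m => r) c (((m : ℝ) * r) ^ K₀) ≤
        ((tables (fun _ : Fin m => r) c).card : ℝ≥0∞)) := by
  refine ⟨fun m n r c => nu_eq r c, fun m n r c s s' a ha ha1 => cap_logconcave r c s s' a ha ha1,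
    ?_, ?_⟩
  · obtain ⟨K₀, hK, h⟩ := mainS A hA
    refine ⟨K₀, hK, fun m n r c h1 h2 h3 h4 h5 h6 h7 => ?_⟩
    have hb := h m n r c h1 h2 h3 h4 h5 h6 h7
    exact ⟨hb, le_truncInt r c _ _ hb, truncInt_le r c _⟩
  · intro z0 hz0
    obtain ⟨K₀, hK, h⟩ := main z0 A hz0 hA
    refine ⟨K₀, hK, fun m n r c h1 h2 h3 h4 h5 h6 => ?_⟩
    have hb := h m n r c h1 h2 h3 h4 h5 h6
    exact ⟨hb, le_truncInt _ c _ _ hb, truncInt_le _ c _⟩

end Vale.Agent.Results.P328.C_blsy
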