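import Vale.Agent.Lib.P328.Cap.Sym

/-!
# A polynomial factor bound for the number of contingency tables by an expected capacity

Write `N = ∑ j, c j`. When every column sum is at least `m / k`, the number of tables is at most
`(N + 1) ^ (2 k - 2) * n ^ (k + 1) * (n + 1) / 2 * betaC c * Ihat r c`. For `k = 1` the factor is the
polynomial `n ^ 2 (n + 1) / 2`. Here `Ihat r c` is the expectation over an exponential random
matrix `t` of the capacity of `∏ i, (∑ j, t j i * b j) ^ r i` at `b ^ c`, divided by `∏ i, r i !`.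

The proof goes column by column. Its core is an exact inequality for sums of independent binomial
variables with mean `c`: `∑_{|x| = c} (∑ i, x i (R i - x i) / R i) P(x) ≤ E (Bin (C, c / C) - c)_+`.
-/

open Finset MeasureTheory Vale.Agent.Lib.P328.Cap
open scoped ENNReal

/-- **Expected capacity bound for contingency tables.** For margins `r`, `c` with the same total
`N` and with `m ≤ k * c j` for all columns `j`, the expected capacity is finite, the number of tables
is at most `(N + 1) ^ (2 * k - 2) * n ^ (k + 1) * (n + 1) / 2 * betaC c * Ihat r c`, and the capacity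
is a log-concave function of the positive coefficient matrix. -/
theorem Vale.Agent.Results.P328.Z_capacity.result {m n : ℕ} (hm : 0 < m) (hn : 0 < n) (k : ℕ)
    (hk : 0 < k) (r : Fin m → ℕ) (c : Fin n → ℕ) (hsum : ∑ i, r i = ∑ j, c j)
    (hcm : ∀ j, m ≤ k * c j) :
    Ihat r c < ⊤ ∧
    ((tabs r c).card : ℝ≥0∞)
      ≤ ENNReal.ofReal ((((∑ j, c j : ℕ) : ℝ) + 1) ^ (2 * k - 2) * (n : ℝ) ^ (k + 1) * ((n : ℝ) + 1) / 2
          * betaC c) * Ihat r c ∧
    ∀ t t' : Fin n → Fin m → ℝ, (∀ j i, 0 < t j i) → (∀ j i, 0 < t' j i) →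
      ∀ a : ℝ, 0 ≤ a → a ≤ 1 →
        capa r c t ^ a * capa r c t' ^ (1 - a) ≤ capa r c fun j i => a * t j i + (1 - a) * t' j i :=
  ⟨Ihat_lt_top r c, card_tabs_le' hm hn k hk r c hsum hcm,
    fun t t' ht ht' a ha ha1 => capa_logconc r c t t' ht ht' a ha ha1⟩
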